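import Vale.Agent.P068.Main

namespace Vale.Agent.Results.P068.ChCounterexample

open Set Vale.Agent.P068
open scoped Matroid

/-- Part (a) of the question, for ground sets and index sets that are types. -/
def PackingCoveringConjecture : Prop :=
  ∀ (β ι : Type) (E : Set β) (M : ι → Matroid β), (∀ i, (M i).E = E) → HasPackingCovering M E

/-- Part (b) of the question. -/
def IntersectionConjecture : Prop :=
  ∀ (β : Type) (M N : Matroid β), M.E = N.E → SatisfiesIntersection M N

theorem _root_.Vale.Agent.Results.P068.ChCounterexample.result :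
    (Cardinal.aleph.{0} 1 = Cardinal.continuum.{0} →
      ¬ PackingCoveringConjecture ∧ ¬ IntersectionConjecture) ∧
    (SplitHyp → ∃ M K : Matroid (ℤ × ℕ), M.E = univ ∧ K.E = univ ∧
      IsSumOfUniform M ∧ IsSumOfUniform K ∧ ¬ SatisfiesIntersection M K ∧
      ¬ HasPackingCovering ![M, K✶] univ) := by
  refine ⟨?_, counterexample⟩
  intro h
  obtain ⟨M, K, hM, hK, -, -, h1, h2⟩ := counterexample (splitHyp_of_CH h)
  refine ⟨?_, ?_⟩
  · intro hc
    apply h2
    refine hc (ℤ × ℕ) (Fin 2) univ ![M, K✶] ?_
    intro i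
    fin_cases i
    · exact hM
    · exact hK
  · intro hc
    exact h1 (hc (ℤ × ℕ) M K (by rw [hM, hK]))

end Vale.Agent.Results.P068.ChCounterexample
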